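import Vale.Agent.P088.R2.H230.W.Far2

/-!
# P088, stage 3: the pointwise form at a flat pass

In the format of helper230's `far_cert2` (everything divided by `E S`): `φ₁ + φ₂ = e`, `φ₁` small (that is
`W_x` small), `w` the full gradient in the second slot, almost parallel to `e`.  Only a field in the second
slot is used.
-/

noncomputable section

namespace Vale.Agent.P088.R2.H660.W

open Vale.Agent.P088.R2.H230.W

variable {ι : Type*} [Fintype ι]

/-- Cauchy-Schwarz for `dd`. -/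
lemma dd_cs (u v : ι → ℝ) : dd u v ^ 2 ≤ dd u u * dd v v := by
  unfold dd
  have := Finset.sum_mul_sq_le_sq_mul_sq Finset.univ u v
  simpa [sq] using this

/-- The lateral square. -/
def lat (h U : ι → ℝ) : ℝ := dd U U - dd h U ^ 2

lemma lat_nonneg {h : ι → ℝ} (hh : dd h h = 1) (U : ι → ℝ) : 0 ≤ lat h U := by
  have := dd_cs h U
  rw [hh, one_mul] at this
  unfold lat; linarith

lemma lat_le (h U : ι → ℝ) : lat h U ≤ dd U U := by
  unfold lat; linarith [sq_nonneg (dd h U)]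

lemma lat_sub {h : ι → ℝ} (hh : dd h h = 1) (U V : ι → ℝ) :
    4 / 5 * lat h U - 4 * lat h V ≤ lat h (U - V) := by
  have h0 := lat_nonneg hh ((1 / 5 : ℝ) • U - V)
  have e0 : lat h ((1 / 5 : ℝ) • U - V) = (1 / 5) ^ 2 * lat h U -
      2 / 5 * (dd U V - dd h U * dd h V) + lat h V := by
    unfold lat
    simp only [dd_sub_left, dd_sub_right, dd_smul_left, dd_smul_right, dd_comm V U]
    ring
  have e1 : lat h (U - V) = lat h U - 2 * (dd U V - dd h U * dd h V) + lat h V := by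
    unfold lat
    simp only [dd_sub_left, dd_sub_right, dd_comm V U]
    ring
  rw [e0] at h0
  rw [e1]; linarith

/-- The field in the second slot. -/
def cp (w : ι → ℝ) (lam : ℝ) : ι → ℝ := (lam / dd w w) • w

lemma TT_cp {w : ι → ℝ} (hw : 0 < dd w w) (lam : ℝ) (V : ι → ℝ) :
    TT (cp w lam) w V = lam * dd V V - 2 * lam * (dd w V ^ 2 / dd w w) := by
  unfold TT cp
  simp only [dd_smul_left]
  field_simp

lemma cp_sq {w : ι → ℝ} (hw : 0 < dd w w) (lam : ℝ) :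
    dd (cp w lam) (cp w lam) * dd w w = lam ^ 2 := by
  unfold cp
  simp only [dd_smul_left, dd_smul_right]
  field_simp

private lemma sq_split {a b s x : ℝ} (hx : x ^ 2 ≤ s) (h : a = b + x) :
    a ^ 2 ≤ 5 / 4 * b ^ 2 + 5 * s := by
  subst h
  have := sq_nonneg (b - 4 * x)
  nlinarith

/-- The direction of `w` against `e`. -/
lemma dir_le {e w : ι → ℝ} (he : dd e e = 1) (hw : 0 < dd w w) {ε : ℝ}
    (hwe : (1 - ε) * dd w w ≤ dd w e ^ 2) (V : ι → ℝ) :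
    dd w V ^ 2 / dd w w ≤ 5 / 4 * dd e V ^ 2 + 5 * (ε * dd V V) := by
  have hVV := dd_self_nonneg V
  have hsT : dd w e ^ 2 ≤ dd w w := by
    have := dd_cs w e
    rw [he, mul_one] at this
    exact this
  have b2 : dd (w - dd w e • e) (w - dd w e • e) = dd w w - dd w e ^ 2 := by
    simp only [dd_sub_left, dd_sub_right, dd_smul_left, dd_smul_right, he, dd_comm e w]
    ring
  have b3 : dd w V = dd w e * dd e V + dd (w - dd w e • e) V := by
    simp only [dd_sub_left, dd_smul_left]; ring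
  have b4 : dd (w - dd w e • e) V ^ 2 ≤ (dd w w - dd w e ^ 2) * dd V V := by
    have := dd_cs (w - dd w e • e) V
    rwa [b2] at this
  have b5 := sq_split b4 b3
  rw [div_le_iff₀ hw]
  have c1 : (dd w e * dd e V) ^ 2 ≤ dd w w * dd e V ^ 2 := by
    rw [mul_pow]; exact mul_le_mul_of_nonneg_right hsT (sq_nonneg _)
  have c2 : (dd w w - dd w e ^ 2) * dd V V ≤ ε * dd w w * dd V V :=
    mul_le_mul_of_nonneg_right (by linarith) hVV
  linarith

private lemma pass_fin {k m η ε UU VV lU lV a b c f g t : ℝ} (hk0 : 0 ≤ k)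
    (hk : 20 * k ≤ 1) (hη : 400 * η ≤ 1) (hε : 400 * ε ≤ 1) (hm0 : 0 ≤ m) (hm : 400 * m ≤ 1)
    (hV : 0 ≤ VV) (hlV : lV ≤ VV)
    (h1 : a ^ 2 ≤ η * UU) (h2 : c ^ 2 ≤ η * VV)
    (h3 : g ≤ 5 / 4 * f ^ 2 + 5 * (ε * VV)) (h4 : f = c + b)
    (h5 : 4 / 5 * lU - 4 * lV ≤ t) {q : ℝ} (h6 : q ≤ 2 * UU + 2 * VV) :
    4 / 5 * k * lU - (7 * η + 2 * m) * UU + 1 / 40 * VV ≤
      (a + b) ^ 2 + k * t - m * q + (1 / 4 * VV - 2 * (1 / 4) * g) := by
  have e1 : 7 / 8 * b ^ 2 - 7 * a ^ 2 ≤ (a + b) ^ 2 := by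
    have := sq_nonneg (8 * a + b)
    nlinarith
  have e2 : f ^ 2 ≤ 5 / 4 * b ^ 2 + 5 * (η * VV) := sq_split h2 (by rw [h4]; ring)
  have e3 : k * (4 / 5 * lU - 4 * lV) ≤ k * t := mul_le_mul_of_nonneg_left h5 hk0
  have e4 : k * lV ≤ 1 / 20 * VV := by
    calc k * lV ≤ k * VV := mul_le_mul_of_nonneg_left hlV hk0
      _ ≤ 1 / 20 * VV := mul_le_mul_of_nonneg_right (by linarith) hV
  have e5 : m * q ≤ m * (2 * UU + 2 * VV) := mul_le_mul_of_nonneg_left h6 hm0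
  have e6 : m * VV ≤ 1 / 400 * VV := mul_le_mul_of_nonneg_right (by linarith) hV
  have e7 : η * VV ≤ 1 / 400 * VV := mul_le_mul_of_nonneg_right (by linarith) hV
  have e8 : ε * VV ≤ 1 / 400 * VV := mul_le_mul_of_nonneg_right (by linarith) hV
  have e9 : 0 ≤ b ^ 2 := sq_nonneg b
  linarith

/-- **The form at a flat pass.** -/
theorem pass_cert {e h : ι → ℝ} (he : dd e e = 1) (hh : dd h h = 1) {k m η ε : ℝ}
    (hk0 : 0 ≤ k) (hk : 20 * k ≤ 1) (hη : 400 * η ≤ 1) (hε : 400 * ε ≤ 1) (hm0 : 0 ≤ m)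
    (hm : 400 * m ≤ 1) (φ₁ φ₂ w : ι → ℝ) (hs : φ₁ + φ₂ = e) (hφ : dd φ₁ φ₁ ≤ η)
    (hw : 0 < dd w w) (hwe : (1 - ε) * dd w w ≤ dd w e ^ 2) (U V : ι → ℝ) :
    4 / 5 * k * lat h U - (7 * η + 2 * m) * dd U U + 1 / 40 * dd V V ≤
      (dd φ₁ U + dd φ₂ V) ^ 2 + k * (dd (U - V) (U - V) - dd h (U - V) ^ 2)
        - m * dd h (U - V) ^ 2 + TT (cp w (1 / 4)) w V := by
  have hUU := dd_self_nonneg U
  have hVV := dd_self_nonneg V
  have a1 : dd φ₁ U ^ 2 ≤ η * dd U U := (dd_cs φ₁ U).trans (mul_le_mul_of_nonneg_right hφ hUU)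
  have a2 : dd φ₁ V ^ 2 ≤ η * dd V V := (dd_cs φ₁ V).trans (mul_le_mul_of_nonneg_right hφ hVV)
  have a3 : dd e V = dd φ₁ V + dd φ₂ V := by rw [← hs, dd_add_left]
  have d1 : dd h (U - V) ^ 2 ≤ 2 * dd U U + 2 * dd V V := by
    have e1 := dd_cs h U
    have e2 := dd_cs h V
    rw [hh, one_mul] at e1 e2
    rw [dd_sub_right]
    have e3 := sq_nonneg (dd h U + dd h V)
    linarith [show (dd h U - dd h V) ^ 2 = 2 * dd h U ^ 2 + 2 * dd h V ^ 2 -
      (dd h U + dd h V) ^ 2 by ring]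
  rw [TT_cp hw]
  exact pass_fin hk0 hk hη hε hm0 hm hVV (lat_le h V) a1 a2 (dir_le he hw hwe V) a3
    (lat_sub hh U V) d1

end Vale.Agent.P088.R2.H660.W
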