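import Vale.Agent.P088.R2.H660.W.Wq
import Vale.Agent.P088.R2.H747.S.Sem

/-!
# Weighted `L²` methods: the tube lemma with zero point energy

The cut star density `χ² (8 TH (X a, X b) + qs)` is bounded below from one pointwise inequality,
using the zero point energy of a form `q ≥ 0` in the dressed derivatives of the first function.
-/

open MeasureTheory Set Filter
open scoped ContDiff Topology

noncomputable section

namespace Vale.Agent.P088.R2.H660.W

open Vale.Agent.P088.R2.H961.GW Vale.Agent.P088.R2.H644 Vale.Agent.P088.R2.H960.W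
  Vale.Agent.P088.R2.H747.S

variable {E ι κ : Type*} [NormedAddCommGroup E] [NormedSpace ℝ E] [Fintype ι] [Fintype κ]

/-- `s(A, A)`. -/
def sA (σ : Sl E ι) (z : E) (A : ι → ℝ) : ℝ := ∑ i, ∑ j, σ.s i j z * A i * A j

/-- A form on a covector. -/
def qA (q : ι → ι → E → ℝ) (z : E) (A : ι → ℝ) : ℝ := ∑ i, ∑ j, q i j z * A i * A j

/-- The star density. -/
def sd (σ : Sl E ι) (τ : Sl E κ) (v₁ v₂ W a b : E → ℝ) (z : E) : ℝ :=
  8 * Ch.TH σ τ W z (Ch.XX σ W a z) (Ch.XX τ W b z) + qs σ τ v₁ v₂ W a b z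

section pw

variable {σ : Sl E ι} {τ : Sl E κ} {U : Set E} {θ : E → ℝ} {v v₁ v₂ W a b m : E → ℝ} {z : E}

theorem tsX1 (ok : σ.Ok U θ) (hW : Sm U W) (ha : Te U a) :
    Te U fun z => sA σ z (XX σ W a · z) :=
  Te.sum ok.op _ fun i _ => Te.sum ok.op _ fun j _ =>
    (tX ok hW ha j).mul_left ok.op ((ok.ss i j).mul (tX ok hW ha i).sm)

theorem tsd (ok : σ.Ok U θ) (ot : τ.Ok U θ) (hv₁ : Sm U v₁) (hv₂ : Sm U v₂) (hW : Sm U W)
    (ha : Te U a) (hb : Te U b) : Te U fun z =>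
      8 * (σ.Hd W a z + 2 * Md σ τ W a b z + τ.Hd W b z) + qs σ τ v₁ v₂ W a b z :=
  ((Ch.tHH ok ot hW ha hb).cmul ok.op 8).add ok.op (tqs ok ot hv₁ hv₂ hW ha hb)

theorem sd_eq (ok : σ.Ok U θ) (ot : τ.Ok U θ) (v₁ v₂ : E → ℝ) (hW : Sm U W) (ha : Te U a)
    (hb : Te U b) (hz : z ∈ U) : sd σ τ v₁ v₂ W a b z =
      8 * (σ.Hd W a z + 2 * Md σ τ W a b z + τ.Hd W b z) + qs σ τ v₁ v₂ W a b z := by
  unfold sd
  rw [Ch.TH_XX ok ot hW ha.sm hb.sm hz]

end pw

/-! ## Integrals -/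

variable [MeasureSpace E] [FiniteDimensional ℝ E] [BorelSpace E]
  [(volume : Measure E).IsAddHaarMeasure]

section integral

variable {σ : Sl E ι} {τ : Sl E κ} {U : Set E} {θ : E → ℝ}
  {v v₁ v₂ W f g h a b m m' χ ψ ρ ρ' ζ ζ' o o' : E → ℝ}
  {d : ι → E → ℝ} {d' : κ → E → ℝ} {q : ι → ι → E → ℝ}

/-- **The master inequality for one slot, with a weight.** -/
theorem weyl_chi (ok : σ.Ok U θ) (hv : Sm U v) (hW : Sm U W) (ha : Te U a) (hχ : Sm U χ)
    (hd : ∀ i, Sm U (d i)) {κ₀ : ℝ} (hκ : 0 < κ₀) :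
    8 * In U θ (TC σ (fun i z => χ z * d i z) W (XX σ W a)) +
      16 * In U θ (fun z => dF σ (fun i z => χ z * d i z) W z * a z ^ 2) +
      8 * In U θ (eC σ (fun i z => χ z * d i z) v W a) -
      16 / κ₀ * In U θ (fun z => cY σ d W a z ^ 2) ≤
      κ₀ * In U θ (fun z => χ z ^ 2 * σ.P v W a z ^ 2) := by
  have hU := ok.op
  have hc : ∀ i, Sm U fun z => χ z * d i z := fun i => hχ.mul (hd i)
  have tP := ok.tP hv hW ha
  have tc := tcY ok hd hW ha
  have e1 := mult' ok hv hW ha hc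
  have e2 := TC_XY ok hW ha hc
  have tχP : Te U fun z => χ z ^ 2 * σ.P v W a z ^ 2 := (tP.sq hU).mul_left hU (hχ.pow 2)
  have tPc : Te U fun z => σ.P v W a z * (χ z * cY σ d W a z) :=
    (tc.mul_left hU hχ).mul_left hU tP.sm
  have e3 : In U θ (fun z => σ.P v W a z * cY σ (fun i z => χ z * d i z) W a z) =
      In U θ (fun z => σ.P v W a z * (χ z * cY σ d W a z)) := by
    refine In_congr hU fun z _ => ?_
    unfold cY
    simp only [Finset.mul_sum]
    exact Finset.sum_congr rfl fun i _ => by ring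
  have h : 0 ≤ In U θ (fun z => κ₀ * (χ z ^ 2 * σ.P v W a z ^ 2) +
      8 * (σ.P v W a z * (χ z * cY σ d W a z)) + 16 / κ₀ * (cY σ d W a z ^ 2)) := by
    refine In_nonneg hU ok.tp fun z _ => ?_
    have e : κ₀ * (χ z ^ 2 * σ.P v W a z ^ 2) + 8 * (σ.P v W a z * (χ z * cY σ d W a z)) +
      16 / κ₀ * (cY σ d W a z ^ 2) = κ₀ * (χ z * σ.P v W a z + 4 / κ₀ * cY σ d W a z) ^ 2 := by
      field_simp; ring
    rw [e]; positivity
  rw [In_add hU ok.ts ((tχP.cmul hU κ₀).add hU (tPc.cmul hU 8)) ((tc.sq hU).cmul hU _),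
    In_add hU ok.ts (tχP.cmul hU κ₀) (tPc.cmul hU 8), In_cmul, In_cmul, In_cmul, ← e3, e1] at h
  rw [e2]
  linarith

/-- Upper bound of a weighted square through `P`. -/
theorem up_X (ok : σ.Ok U θ) (hv : Sm U v) (hW : Sm U W) (ha : Te U a) (hχ : Sm U χ)
    (hf : Sm U f) {κ₁ : ℝ} (hκ : 0 < κ₁) :
    In U θ (fun z => (χ z * f z) * sA σ z (XX σ W a · z)) ≤
      κ₁ * In U θ (fun z => χ z ^ 2 * σ.P v W a z ^ 2) +
      In U θ (fun z => (χ z * f z * (2 * σ.F W z + v z + σ.Λ W z) +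
        1 / 2 * σ.Λ (fun z => χ z * f z) z + 1 / (4 * κ₁) * f z ^ 2) * a z ^ 2) := by
  have hU := ok.op
  have ta := ha.sq hU
  have hψ : Sm U fun z => χ z * f z := hχ.mul hf
  have tP := ok.tP hv hW ha
  have e := en_X ok hv hW ha hψ
  have tχP : Te U fun z => χ z ^ 2 * σ.P v W a z ^ 2 := (tP.sq hU).mul_left hU (hχ.pow 2)
  have t1 : Te U fun z => χ z * f z * (a z * σ.P v W a z) :=
    (tP.mul_left hU ha.sm).mul_left hU hψ
  have t2 : Te U fun z => f z ^ 2 * a z ^ 2 := ta.mul_left hU (hf.pow 2)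
  have t3 : Te U fun z => (χ z * f z * (2 * σ.F W z + v z + σ.Λ W z) +
      1 / 2 * σ.Λ (fun z => χ z * f z) z) * a z ^ 2 :=
    ta.mul_left hU ((hψ.mul (((contDiffOn_const.mul (ok.sF hW)).add hv).add (ok.sL hW))).add
      (contDiffOn_const.mul (ok.sL hψ)))
  have h : 0 ≤ In U θ (fun z => κ₁ * (χ z ^ 2 * σ.P v W a z ^ 2) +
      χ z * f z * (a z * σ.P v W a z) + 1 / (4 * κ₁) * (f z ^ 2 * a z ^ 2)) := by
    refine In_nonneg hU ok.tp fun z _ => ?_
    have e : κ₁ * (χ z ^ 2 * σ.P v W a z ^ 2) + χ z * f z * (a z * σ.P v W a z) +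
      1 / (4 * κ₁) * (f z ^ 2 * a z ^ 2) =
      κ₁ * (χ z * σ.P v W a z + 1 / (2 * κ₁) * (f z * a z)) ^ 2 := by
      field_simp; ring
    rw [e]; positivity
  rw [In_add hU ok.ts ((tχP.cmul hU κ₁).add hU t1) (t2.cmul hU _),
    In_add hU ok.ts (tχP.cmul hU κ₁) t1, In_cmul, In_cmul] at h
  have e4 : In U θ (fun z => (χ z * f z * (2 * σ.F W z + v z + σ.Λ W z) +
        1 / 2 * σ.Λ (fun z => χ z * f z) z + 1 / (4 * κ₁) * f z ^ 2) * a z ^ 2) =
      In U θ (fun z => (χ z * f z * (2 * σ.F W z + v z + σ.Λ W z) +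
        1 / 2 * σ.Λ (fun z => χ z * f z) z) * a z ^ 2) +
      1 / (4 * κ₁) * In U θ (fun z => f z ^ 2 * a z ^ 2) := by
    rw [← In_cmul, ← In_add hU ok.ts t3 (t2.cmul hU _)]
    exact In_congr hU fun z _ => by ring
  have e5 : In U θ (fun z => (χ z * f z) * sA σ z (XX σ W a · z)) =
      In U θ (fun z => χ z * f z * ∑ i, ∑ j, σ.s i j z * XX σ W a i z * XX σ W a j z) := rfl
  rw [e4, e5, e]
  linarith

/-- Lower bound of a weighted square. -/
theorem low_X (ok : σ.Ok U θ) (hW : Sm U W) (ha : Te U a) (hm : Sm U m)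
    (p : Psd σ U) (m0 : ∀ z ∈ U, 0 ≤ m z) :
    In U θ (fun z => (m z * σ.F W z + m z * σ.Λ W z + σ.Γ m W z) * a z ^ 2) ≤
      In U θ (fun z => m z * sA σ z (XX σ W a · z)) := by
  have hU := ok.op
  have ta := ha.sq hU
  have e := Vale.Agent.P088.R2.H747.S.en_X ok hW ha hm
  have tF : Te U fun z => m z * σ.F W z * a z ^ 2 := tmF ok hm hW ha
  have tw : Te U fun z => (m z * σ.Λ W z + σ.Γ m W z) * a z ^ 2 :=
    ta.mul_left hU ((hm.mul (ok.sL hW)).add (ok.sG hm hW))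
  have h3 : In U θ (fun z => m z * σ.F W z * a z ^ 2) ≤ In U θ (mE σ m W a) := by
    refine In_mono hU ok.tp ok.ts tF (tmE ok hm hW ha) fun z hz => ?_
    unfold mE
    have := mul_nonneg (m0 z hz) (p.G a hz)
    nlinarith
  have e2 : In U θ (fun z => (m z * σ.F W z + m z * σ.Λ W z + σ.Γ m W z) * a z ^ 2) =
      In U θ (fun z => m z * σ.F W z * a z ^ 2) +
      In U θ (fun z => (m z * σ.Λ W z + σ.Γ m W z) * a z ^ 2) := by
    rw [← In_add hU ok.ts tF tw]
    exact In_congr hU fun z _ => by ring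
  have e3 : In U θ (fun z => m z * sA σ z (XX σ W a · z)) =
      In U θ (fun z => m z * ∑ i, ∑ j, σ.s i j z * XX σ W a i z * XX σ W a j z) := rfl
  rw [e2, e3]
  linarith

/-- **The tube lemma.**  One pointwise certificate `cert` for the cut star density with the form
`q ≥ 0` (zero point), margins `m, m'`, a negative part `χ f - ρ`, and two scalar inequalities
`zz, zz'` give the integrated lower bound. -/
theorem tube (ok : σ.Ok U θ) (ot : τ.Ok U θ) (p : Psd σ U) (p' : Psd τ U) (hv₁ : Sm U v₁)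
    (hv₂ : Sm U v₂) (hW : Sm U W) (ha : Te U a) (hb : Te U b) (hχ : Sm U χ)
    (hd : ∀ i, Sm U (d i)) (hd' : ∀ i, Sm U (d' i)) (hq : ∀ i j, Sm U (q i j))
    (sq : ∀ i j z, q i j z = q j i z)
    (pos : ∀ z ∈ U, ∀ u : ι → ℝ, 0 ≤ ∑ i, ∑ j, q i j z * u i * u j)
    (hf : Sm U f) (hρ : Sm U ρ) (hρ' : Sm U ρ') (hm : Sm U m) (hm' : Sm U m') (hg : Sm U g) (hh : Sm U h)
    (hζ : Sm U ζ) (hζ' : Sm U ζ') (ho : Sm U o) (ho' : Sm U o')
    (m0 : ∀ z ∈ U, 0 ≤ m z) (m0' : ∀ z ∈ U, 0 ≤ m' z)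
    {κ₀ κ₁ s : ℝ} (hκ : 0 < κ₀) (hκ₁ : 0 < κ₁) (s1 : s ≤ 1)
    (fd : ∀ z ∈ U, 16 / κ₀ * cY σ d W a z ^ 2 -
      8 * eC σ (fun i z => χ z * d i z) v₁ W a z ≤
      g z * (sA σ z (XX σ W a · z) + (4 * σ.F W z + 1) * a z ^ 2))
    (fd' : ∀ z ∈ U, 16 / κ₀ * cY τ d' W b z ^ 2 -
      8 * eC τ (fun i z => χ z * d' i z) v₂ W b z ≤
      h z * (sA τ z (XX τ W b · z) + (4 * τ.F W z + 1) * b z ^ 2))
    (cert : ∀ z ∈ U, ∀ (A : ι → ℝ) (B : κ → ℝ) (x y : ℝ),
      8 * qA q z A + (4 * m z + ρ z + g z - χ z * f z) * sA σ z A +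
        (4 * m' z + ρ' z + h z) * sA τ z B + (g z * (4 * σ.F W z + 1) - ζ z) * x ^ 2 +
        (h z * (4 * τ.F W z + 1) - ζ' z) * y ^ 2 ≤
      χ z ^ 2 * (8 * Ch.TH σ τ W z A B + qf σ τ v₁ v₂ W z A B x y) +
        8 * (tc σ (fun i z => χ z * d i z) W z A + tc τ (fun i z => χ z * d' i z) W z B))
    (zz : ∀ z ∈ U, o z + ζ z + (χ z * f z * (2 * σ.F W z + v₁ z + σ.Λ W z) +
        1 / 2 * σ.Λ (fun z => χ z * f z) z + 1 / (4 * κ₁) * f z ^ 2) ≤
      16 * (1 - s) * zp σ q W z + 3 * (m z * σ.F W z + m z * σ.Λ W z + σ.Γ m W z) +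
        16 * dF σ (fun i z => χ z * d i z) W z)
    (zz' : ∀ z ∈ U, o' z + ζ' z ≤
      2 * (m' z * τ.F W z + m' z * τ.Λ W z + τ.Γ m' W z) +
        16 * dF τ (fun i z => χ z * d' i z) W z) :
    8 * s * In U θ (qX σ q W a) + In U θ (fun z => (m z + ρ z) * sA σ z (XX σ W a · z)) +
      In U θ (fun z => (2 * m' z + ρ' z) * sA τ z (XX τ W b · z)) +
      In U θ (fun z => o z * a z ^ 2) + In U θ (fun z => o' z * b z ^ 2) ≤
    In U θ (fun z => χ z ^ 2 * sd σ τ v₁ v₂ W a b z) +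
      κ₀ * (In U θ (fun z => χ z ^ 2 * σ.P v₁ W a z ^ 2) +
        In U θ (fun z => χ z ^ 2 * τ.P v₂ W b z ^ 2)) +
      κ₁ * In U θ (fun z => χ z ^ 2 * σ.P v₁ W a z ^ 2) := by
  have hU := ok.op
  have ta := ha.sq hU
  have tb := hb.sq hU
  have hc : ∀ i, Sm U fun z => χ z * d i z := fun i => hχ.mul (hd i)
  have hc' : ∀ i, Sm U fun z => χ z * d' i z := fun i => hχ.mul (hd' i)
  have w1 := weyl_chi ok hv₁ hW ha hχ hd hκ
  have w2 := weyl_chi ot hv₂ hW hb hχ hd' hκ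
  have u1 := up_X ok hv₁ hW ha hχ hf hκ₁
  have l1 := low_X ok hW ha hm p m0
  have l2 := low_X ot hW hb hm' p' m0'
  have z1 := zero_pt ok hW ha hq sq pos
  have sx := tsX1 ok hW ha
  have sx' := tsX1 ot hW hb
  have sF := ok.sF hW
  have sF' := ot.sF hW
  have tQ := tqX ok hW ha hq
  have tsd' := (tsd ok ot hv₁ hv₂ hW ha hb).mul_left hU (hχ.pow 2)
  have tT1 := tTC (c := fun i z => χ z * d i z) ok hc hW fun i => tX ok hW ha i
  have tT2 := tTC (c := fun i z => χ z * d' i z) ot hc' hW fun i => tX ot hW hb i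
  have tm := sx.mul_left hU hm
  have tρ := sx.mul_left hU hρ
  have tg := sx.mul_left hU hg
  have tf := sx.mul_left hU (hχ.mul hf)
  have tm' := sx'.mul_left hU hm'
  have tρ' := sx'.mul_left hU hρ'
  have th := sx'.mul_left hU hh
  have tgF : Te U fun z => g z * (4 * σ.F W z + 1) * a z ^ 2 :=
    ta.mul_left hU (hg.mul ((contDiffOn_const.mul sF).add contDiffOn_const))
  have thF : Te U fun z => h z * (4 * τ.F W z + 1) * b z ^ 2 :=
    tb.mul_left hU (hh.mul ((contDiffOn_const.mul sF').add contDiffOn_const))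
  have tz := ta.mul_left hU hζ
  have tz' := tb.mul_left hU hζ'
  have teC1 := teC ok hc hv₁ hW ha
  have teC2 := teC ot hc' hv₂ hW hb
  have tcY1 := (tcY ok hd hW ha).sq hU
  have tcY2 := (tcY ot hd' hW hb).sq hU
  -- the field errors
  have e1 : 16 / κ₀ * In U θ (fun z => cY σ d W a z ^ 2) -
      8 * In U θ (eC σ (fun i z => χ z * d i z) v₁ W a) ≤
      In U θ (fun z => g z * sA σ z (XX σ W a · z)) +
        In U θ (fun z => g z * (4 * σ.F W z + 1) * a z ^ 2) := by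
    rw [← In_cmul, ← In_cmul, ← In_sub hU ok.ts (tcY1.cmul hU _) (teC1.cmul hU 8),
      ← In_add hU ok.ts tg tgF]
    refine In_mono hU ok.tp ok.ts ((tcY1.cmul hU _).sub hU (teC1.cmul hU 8)) (tg.add hU tgF)
      fun z hz => ?_
    have := fd z hz
    linarith
  have e2 : 16 / κ₀ * In U θ (fun z => cY τ d' W b z ^ 2) -
      8 * In U θ (eC τ (fun i z => χ z * d' i z) v₂ W b) ≤
      In U θ (fun z => h z * sA τ z (XX τ W b · z)) +
        In U θ (fun z => h z * (4 * τ.F W z + 1) * b z ^ 2) := by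
    rw [← In_cmul, ← In_cmul, ← In_sub hU ok.ts (tcY2.cmul hU _) (teC2.cmul hU 8),
      ← In_add hU ok.ts th thF]
    refine In_mono hU ok.tp ok.ts ((tcY2.cmul hU _).sub hU (teC2.cmul hU 8)) (th.add hU thF)
      fun z hz => ?_
    have := fd' z hz
    linarith
  -- the pointwise inequality, integrated
  have key : 8 * In U θ (qX σ q W a) + 4 * In U θ (fun z => m z * sA σ z (XX σ W a · z)) +
      In U θ (fun z => ρ z * sA σ z (XX σ W a · z)) +
      In U θ (fun z => g z * sA σ z (XX σ W a · z)) -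
      In U θ (fun z => (χ z * f z) * sA σ z (XX σ W a · z)) +
      4 * In U θ (fun z => m' z * sA τ z (XX τ W b · z)) +
      In U θ (fun z => h z * sA τ z (XX τ W b · z)) +
      In U θ (fun z => ρ' z * sA τ z (XX τ W b · z)) +
      In U θ (fun z => g z * (4 * σ.F W z + 1) * a z ^ 2) +
      In U θ (fun z => h z * (4 * τ.F W z + 1) * b z ^ 2) -
      In U θ (fun z => ζ z * a z ^ 2) - In U θ (fun z => ζ' z * b z ^ 2) ≤
      In U θ (fun z => χ z ^ 2 * sd σ τ v₁ v₂ W a b z) +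
        8 * In U θ (TC σ (fun i z => χ z * d i z) W (XX σ W a)) +
        8 * In U θ (TC τ (fun i z => χ z * d' i z) W (XX τ W b)) := by
    have c1 : In U θ (fun z => χ z ^ 2 * sd σ τ v₁ v₂ W a b z) =
        In U θ (fun z => χ z ^ 2 * (8 * (σ.Hd W a z + 2 * Md σ τ W a b z + τ.Hd W b z) +
          qs σ τ v₁ v₂ W a b z)) :=
      In_congr hU fun z hz => by rw [sd_eq ok ot v₁ v₂ hW ha hb hz]
    rw [c1, ← In_cmul U θ 8 (qX σ q W a), ← In_cmul U θ 4 (fun z => m z * sA σ z (XX σ W a · z)),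
      ← In_cmul U θ 4 (fun z => m' z * sA τ z (XX τ W b · z)),
      ← In_cmul U θ 8 (TC σ (fun i z => χ z * d i z) W (XX σ W a)),
      ← In_cmul U θ 8 (TC τ (fun i z => χ z * d' i z) W (XX τ W b)),
      ← In_add hU ok.ts (tQ.cmul hU 8) (tm.cmul hU 4),
      ← In_add hU ok.ts ((tQ.cmul hU 8).add hU (tm.cmul hU 4)) tρ,
      ← In_add hU ok.ts (((tQ.cmul hU 8).add hU (tm.cmul hU 4)).add hU tρ) tg,
      ← In_sub hU ok.ts ((((tQ.cmul hU 8).add hU (tm.cmul hU 4)).add hU tρ).add hU tg) tf,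
      ← In_add hU ok.ts (((((tQ.cmul hU 8).add hU (tm.cmul hU 4)).add hU tρ).add hU tg).sub hU tf)
        (tm'.cmul hU 4),
      ← In_add hU ok.ts ((((((tQ.cmul hU 8).add hU (tm.cmul hU 4)).add hU tρ).add hU tg).sub hU
        tf).add hU (tm'.cmul hU 4)) th,
      ← In_add hU ok.ts (((((((tQ.cmul hU 8).add hU (tm.cmul hU 4)).add hU tρ).add hU tg).sub hU
        tf).add hU (tm'.cmul hU 4)).add hU th) tρ',
      ← In_add hU ok.ts ((((((((tQ.cmul hU 8).add hU (tm.cmul hU 4)).add hU tρ).add hU tg).sub hU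
        tf).add hU (tm'.cmul hU 4)).add hU th).add hU tρ') tgF,
      ← In_add hU ok.ts (((((((((tQ.cmul hU 8).add hU (tm.cmul hU 4)).add hU tρ).add hU tg).sub hU
        tf).add hU (tm'.cmul hU 4)).add hU th).add hU tρ').add hU tgF) thF,
      ← In_sub hU ok.ts ((((((((((tQ.cmul hU 8).add hU (tm.cmul hU 4)).add hU tρ).add hU tg).sub hU
        tf).add hU (tm'.cmul hU 4)).add hU th).add hU tρ').add hU tgF).add hU thF) tz,
      ← In_sub hU ok.ts (((((((((((tQ.cmul hU 8).add hU (tm.cmul hU 4)).add hU tρ).add hU tg).sub hU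
        tf).add hU (tm'.cmul hU 4)).add hU th).add hU tρ').add hU tgF).add hU thF).sub hU tz) tz',
      ← In_add hU ok.ts tsd' (tT1.cmul hU 8),
      ← In_add hU ok.ts (tsd'.add hU (tT1.cmul hU 8)) (tT2.cmul hU 8)]
    refine In_mono hU ok.tp ok.ts ((((((((((((tQ.cmul hU 8).add hU (tm.cmul hU 4)).add hU tρ).add hU tg).sub hU
        tf).add hU (tm'.cmul hU 4)).add hU th).add hU tρ').add hU tgF).add hU thF).sub hU tz).sub hU tz')
      ((tsd'.add hU (tT1.cmul hU 8)).add hU (tT2.cmul hU 8)) fun z hz => ?_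
    have hc0 := cert z hz (Ch.XX σ W a z) (Ch.XX τ W b z) (a z) (b z)
    rw [Ch.TH_XX ok ot hW ha.sm hb.sm hz, ← qs_qf] at hc0
    have k1 : qA q z (Ch.XX σ W a z) = qX σ q W a z := rfl
    have k2 : sA σ z (Ch.XX σ W a z) = sA σ z (XX σ W a · z) := rfl
    have k3 : sA τ z (Ch.XX τ W b z) = sA τ z (XX τ W b · z) := rfl
    have k4 : tc σ (fun i z => χ z * d i z) W z (Ch.XX σ W a z) =
      TC σ (fun i z => χ z * d i z) W (XX σ W a) z := rfl
    have k5 : tc τ (fun i z => χ z * d' i z) W z (Ch.XX τ W b z) =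
      TC τ (fun i z => χ z * d' i z) W (XX τ W b) z := rfl
    rw [k1, k2, k3, k4, k5] at hc0
    linarith
  -- the scalar inequalities, integrated
  have tza : Te U fun z => o z * a z ^ 2 := ta.mul_left hU ho
  have tzb : Te U fun z => o' z * b z ^ 2 := tb.mul_left hU ho'
  have szp' := szp ok hW hq
  have sdF : Sm U (dF σ (fun i z => χ z * d i z) W) := Sm.sum _ fun j _ =>
    (ok.sD (sF.mul (hc j)) j).add ((ok.ks j).mul (sF.mul (hc j)))
  have sdF' : Sm U (dF τ (fun i z => χ z * d' i z) W) := Sm.sum _ fun j _ =>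
    (ot.sD (sF'.mul (hc' j)) j).add ((ot.ks j).mul (sF'.mul (hc' j)))
  have tup : Te U fun z => (χ z * f z * (2 * σ.F W z + v₁ z + σ.Λ W z) +
        1 / 2 * σ.Λ (fun z => χ z * f z) z + 1 / (4 * κ₁) * f z ^ 2) * a z ^ 2 :=
    ta.mul_left hU ((((hχ.mul hf).mul (((contDiffOn_const.mul sF).add hv₁).add
      (ok.sL hW))).add (contDiffOn_const.mul (ok.sL (hχ.mul hf)))).add
      (contDiffOn_const.mul (hf.pow 2)))
  have tzp : Te U fun z => zp σ q W z * a z ^ 2 := ta.mul_left hU szp'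
  have tlo : Te U fun z => (m z * σ.F W z + m z * σ.Λ W z + σ.Γ m W z) * a z ^ 2 :=
    ta.mul_left hU (((hm.mul sF).add (hm.mul (ok.sL hW))).add (ok.sG hm hW))
  have tlo' : Te U fun z => (m' z * τ.F W z + m' z * τ.Λ W z + τ.Γ m' W z) * b z ^ 2 :=
    tb.mul_left hU (((hm'.mul sF').add (hm'.mul (ot.sL hW))).add (ot.sG hm' hW))
  have tdF : Te U fun z => dF σ (fun i z => χ z * d i z) W z * a z ^ 2 := ta.mul_left hU sdF
  have tdF' : Te U fun z => dF τ (fun i z => χ z * d' i z) W z * b z ^ 2 := tb.mul_left hU sdF'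
  have key2 : In U θ (fun z => o z * a z ^ 2) + In U θ (fun z => ζ z * a z ^ 2) +
      In U θ (fun z => (χ z * f z * (2 * σ.F W z + v₁ z + σ.Λ W z) +
        1 / 2 * σ.Λ (fun z => χ z * f z) z + 1 / (4 * κ₁) * f z ^ 2) * a z ^ 2) ≤
      16 * (1 - s) * In U θ (fun z => zp σ q W z * a z ^ 2) +
      3 * In U θ (fun z => (m z * σ.F W z + m z * σ.Λ W z + σ.Γ m W z) * a z ^ 2) +
      16 * In U θ (fun z => dF σ (fun i z => χ z * d i z) W z * a z ^ 2) := by
    rw [← In_cmul U θ (16 * (1 - s)) (fun z => zp σ q W z * a z ^ 2), ← In_cmul U θ 3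
        (fun z => (m z * σ.F W z + m z * σ.Λ W z + σ.Γ m W z) * a z ^ 2), ← In_cmul U θ 16
        (fun z => dF σ (fun i z => χ z * d i z) W z * a z ^ 2),
      ← In_add hU ok.ts tza tz, ← In_add hU ok.ts (tza.add hU tz) tup,
      ← In_add hU ok.ts (tzp.cmul hU _) (tlo.cmul hU 3),
      ← In_add hU ok.ts ((tzp.cmul hU _).add hU (tlo.cmul hU 3)) (tdF.cmul hU 16)]
    refine In_mono hU ok.tp ok.ts ((tza.add hU tz).add hU tup)
      (((tzp.cmul hU _).add hU (tlo.cmul hU 3)).add hU (tdF.cmul hU 16)) fun z hz => ?_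
    have := mul_le_mul_of_nonneg_right (zz z hz) (sq_nonneg (a z))
    linarith
  have key3 : In U θ (fun z => o' z * b z ^ 2) + In U θ (fun z => ζ' z * b z ^ 2) ≤
      2 * In U θ (fun z => (m' z * τ.F W z + m' z * τ.Λ W z + τ.Γ m' W z) * b z ^ 2) +
      16 * In U θ (fun z => dF τ (fun i z => χ z * d' i z) W z * b z ^ 2) := by
    rw [← In_cmul U θ 2 (fun z => (m' z * τ.F W z + m' z * τ.Λ W z + τ.Γ m' W z) * b z ^ 2),
      ← In_cmul U θ 16 (fun z => dF τ (fun i z => χ z * d' i z) W z * b z ^ 2),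
      ← In_add hU ok.ts tzb tz',
      ← In_add hU ok.ts (tlo'.cmul hU 2) (tdF'.cmul hU 16)]
    refine In_mono hU ok.tp ok.ts (tzb.add hU tz')
      ((tlo'.cmul hU 2).add hU (tdF'.cmul hU 16)) fun z hz => ?_
    have := mul_le_mul_of_nonneg_right (zz' z hz) (sq_nonneg (b z))
    linarith
  have eρ' : In U θ (fun z => (2 * m' z + ρ' z) * sA τ z (XX τ W b · z)) =
      2 * In U θ (fun z => m' z * sA τ z (XX τ W b · z)) +
      In U θ (fun z => ρ' z * sA τ z (XX τ W b · z)) := by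
    rw [← In_cmul, ← In_add hU ok.ts (tm'.cmul hU 2) tρ']
    exact In_congr hU fun z _ => by ring
  have eρ : In U θ (fun z => (m z + ρ z) * sA σ z (XX σ W a · z)) =
      In U θ (fun z => m z * sA σ z (XX σ W a · z)) +
      In U θ (fun z => ρ z * sA σ z (XX σ W a · z)) := by
    rw [← In_add hU ok.ts tm tρ]
    exact In_congr hU fun z _ => by ring
  have hs : 8 * s * In U θ (qX σ q W a) + 16 * (1 - s) * In U θ (fun z => zp σ q W z * a z ^ 2) ≤
      8 * In U θ (qX σ q W a) := by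
    have := mul_le_mul_of_nonneg_left z1 (by linarith : 0 ≤ 8 * (1 - s))
    linarith
  rw [eρ, eρ']
  linarith only [w1, w2, u1, l1, l2, hs, e1, e2, key, key2, key3]

end integral

end Vale.Agent.P088.R2.H660.W
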