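import Vale.Agent.P088.R2.H960.W.Weyl2

/-!
# Weighted `L²` methods: the master inequality with general quadratic forms, zero point and energy lemmas
-/

open MeasureTheory Set Filter
open scoped ContDiff Topology

noncomputable section

namespace Vale.Agent.P088.R2.H660.W

open Vale.Agent.P088.R2.H961.GW Vale.Agent.P088.R2.H644 Vale.Agent.P088.R2.H960.W

variable {E ι κ : Type*} [NormedAddCommGroup E] [NormedSpace ℝ E] [Fintype ι] [Fintype κ]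

/-- A quadratic form in the dressed derivatives. -/
def qX (σ : Sl E ι) (q : ι → ι → E → ℝ) (W a : E → ℝ) (z : E) : ℝ :=
  ∑ i, ∑ j, q i j z * XX σ W a i z * XX σ W a j z

/-- The same with the other sign. -/
def qY (σ : Sl E ι) (q : ι → ι → E → ℝ) (W a : E → ℝ) (z : E) : ℝ :=
  ∑ i, ∑ j, q i j z * YY σ W a i z * YY σ W a j z

/-- `div (q w)`, the zero point energy. -/
def zp (σ : Sl E ι) (q : ι → ι → E → ℝ) (W : E → ℝ) (z : E) : ℝ :=
  ∑ j, (σ.D j (fun z => ∑ i, q i j z * σ.D i W z) z + σ.k j z * ∑ i, q i j z * σ.D i W z)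

section pw

variable {σ : Sl E ι} {U : Set E} {θ : E → ℝ} {W a : E → ℝ} {q : ι → ι → E → ℝ}

theorem tqX (ok : σ.Ok U θ) (hW : Sm U W) (ha : Te U a) (hq : ∀ i j, Sm U (q i j)) :
    Te U (qX σ q W a) :=
  Te.sum ok.op _ fun i _ => Te.sum ok.op _ fun j _ =>
    (tX ok hW ha j).mul_left ok.op ((hq i j).mul (tX ok hW ha i).sm)

theorem tqY (ok : σ.Ok U θ) (hW : Sm U W) (ha : Te U a) (hq : ∀ i j, Sm U (q i j)) :
    Te U (qY σ q W a) :=
  Te.sum ok.op _ fun i _ => Te.sum ok.op _ fun j _ =>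
    (tY ok hW ha j).mul_left ok.op ((hq i j).mul (tY ok hW ha i).sm)

theorem szp (ok : σ.Ok U θ) (hW : Sm U W) (hq : ∀ i j, Sm U (q i j)) : Sm U (zp σ q W) := by
  have sg : ∀ j, Sm U fun z => ∑ i, q i j z * σ.D i W z := fun j =>
    Sm.sum _ fun i _ => (hq i j).mul (ok.sD hW i)
  exact Sm.sum _ fun j _ => (ok.sD (sg j) j).add ((ok.ks j).mul (sg j))

end pw

variable [MeasureSpace E] [FiniteDimensional ℝ E] [BorelSpace E]
  [(volume : Measure E).IsAddHaarMeasure]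

section integral

variable {σ : Sl E ι} {τ : Sl E κ} {U : Set E} {θ : E → ℝ} {v v₁ v₂ W f g h a b m ψ : E → ℝ}
  {c : ι → E → ℝ} {c' : κ → E → ℝ} {q : ι → ι → E → ℝ} {q' : κ → κ → E → ℝ}

/-- **The master inequality with general forms.** -/
theorem weyl_q (ok : σ.Ok U θ) (ot : τ.Ok U θ) (cm : Cm σ τ U) (hv₁ : Sm U v₁)
    (hv₂ : Sm U v₂) (h₁ : ∀ z ∈ U, ∀ k, τ.D k v₁ z = 0) (h₂ : ∀ z ∈ U, ∀ i, σ.D i v₂ z = 0)
    (hW : Sm U W) (ha : Te U a) (hb : Te U b) (hc : ∀ i, Sm U (c i)) (hc' : ∀ i, Sm U (c' i))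
    {κ₀ : ℝ} (hκ : 0 < κ₀) (hq : ∀ i j, Sm U (q i j)) (hq' : ∀ i j, Sm U (q' i j))
    (cert : ∀ z ∈ U, ∀ (A : ι → ℝ) (B : κ → ℝ), (∑ i, ∑ j, q i j z * A i * A j) +
      (∑ k, ∑ l, q' k l z * B k * B l) ≤ Ch.TH σ τ W z A B + tc σ c W z A + tc τ c' W z B) :
    (1 - κ₀) * (In U θ (fun z => σ.P v₁ W a z ^ 2) + In U θ (fun z => τ.P v₂ W b z ^ 2)) +
      (In U θ (fun z => τ.P v₂ W a z ^ 2) + In U θ (fun z => σ.P v₁ W b z ^ 2)) +
      8 * (In U θ (qX σ q W a) + In U θ (qX τ q' W b)) + In U θ (qs σ τ v₁ v₂ W a b) +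
      16 * (In U θ (fun z => dF σ c W z * a z ^ 2) + In U θ (fun z => dF τ c' W z * b z ^ 2)) +
      8 * (In U θ (eC σ c v₁ W a) + In U θ (eC τ c' v₂ W b)) -
      16 / κ₀ * (In U θ (fun z => cY σ c W a z ^ 2) + In U θ (fun z => cY τ c' W b z ^ 2)) ≤
      TT σ τ U θ v₁ v₂ W a b := by
  have hU := ok.op
  have e := Ch.tstar ok ot cm hv₁ hv₂ h₁ h₂ hW ha hb
  have qq := In_qs ok ot hv₁ hv₂ hW ha hb
  have w1 := weyl ok hv₁ hW ha hc hκ
  have w2 := weyl ot hv₂ hW hb hc' hκ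
  have tT := Ch.tHH ok ot hW ha hb
  have t1 := tTC (c := c) ok hc hW fun i => tX ok hW ha i
  have t2 := tTC (c := c') ot hc' hW fun i => tX ot hW hb i
  have e1 : In U θ (fun z => Ch.TH σ τ W z (Ch.XX σ W a z) (Ch.XX τ W b z)) =
      In U θ (fun z => σ.Hd W a z + 2 * Md σ τ W a b z + τ.Hd W b z) :=
    In_congr hU fun z hz => Ch.TH_XX ok ot hW ha.sm hb.sm hz
  have key : In U θ (qX σ q W a) + In U θ (qX τ q' W b) ≤
      In U θ (fun z => Ch.TH σ τ W z (Ch.XX σ W a z) (Ch.XX τ W b z)) +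
        In U θ (TC σ c W (XX σ W a)) + In U θ (TC τ c' W (XX τ W b)) := by
    rw [e1, ← In_add hU ok.ts (tqX ok hW ha hq) (tqX ot hW hb hq'), ← In_add hU ok.ts tT t1,
      ← In_add hU ok.ts (tT.add hU t1) t2]
    refine In_mono hU ok.tp ok.ts ((tqX ok hW ha hq).add hU (tqX ot hW hb hq'))
      ((tT.add hU t1).add hU t2) fun z hz => ?_
    have h := cert z hz (Ch.XX σ W a z) (Ch.XX τ W b z)
    rw [Ch.TH_XX ok ot hW ha.sm hb.sm hz] at h
    exact h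
  rw [e]
  linarith

/-- `∫ ψ Γ(a, a)` through `P`. -/
theorem en_D (ok : σ.Ok U θ) (hv : Sm U v) (hW : Sm U W) (ha : Te U a) (hψ : Sm U ψ) :
    In U θ (fun z => ψ z * σ.Γ a a z) = -In U θ (fun z => ψ z * (a z * σ.P v W a z)) +
      In U θ (fun z => (ψ z * (σ.F W z + v z) + 1 / 2 * σ.Λ ψ z - σ.Γ W ψ z) * a z ^ 2) := by
  have hU := ok.op
  have ta := ha.sq hU
  have tψa : Te U fun z => ψ z * a z := ha.mul_left hU hψ
  have e1 := In_L ok ha.sm tψa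
  have e2 := In_fK ok hW ha hψ
  have e3 := In_aG ok ha hψ
  have t1 : Te U fun z => σ.Λ a z * (ψ z * a z) := tψa.mul_left hU (ok.sL ha.sm)
  have t2 : Te U fun z => ψ z * a z * σ.K W a z := (ok.tK hW ha).mul_left hU (hψ.mul ha.sm)
  have t3 : Te U fun z => ψ z * σ.Γ a a z := (ok.tG ha.sm ha).mul_left hU hψ
  have t4 : Te U fun z => a z * σ.Γ a ψ z := ha.mul_right hU (ok.sG ha.sm hψ)
  have t5 : Te U fun z => ψ z * (σ.F W z + v z) * a z ^ 2 :=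
    ta.mul_left hU (hψ.mul ((ok.sF hW).add hv))
  have t6 : Te U fun z => σ.Λ ψ z * a z ^ 2 := ta.mul_left hU (ok.sL hψ)
  have t7 : Te U fun z => a z ^ 2 * σ.Γ W ψ z := ta.mul_right hU (ok.sG hW hψ)
  have g1 : In U θ (σ.Γ a fun z => ψ z * a z) =
      In U θ (fun z => ψ z * σ.Γ a a z) + In U θ (fun z => a z * σ.Γ a ψ z) := by
    rw [← In_add hU ok.ts t3 t4]
    exact In_congr hU fun z hz => G_mul ok a hψ ha.sm hz
  have g2 : In U θ (fun z => ψ z * (a z * σ.P v W a z)) =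
      In U θ (fun z => σ.Λ a z * (ψ z * a z)) + In U θ (fun z => ψ z * a z * σ.K W a z) +
        In U θ (fun z => ψ z * (σ.F W z + v z) * a z ^ 2) := by
    rw [← In_add hU ok.ts t1 t2, ← In_add hU ok.ts (t1.add hU t2) t5]
    refine In_congr hU fun z _ => ?_
    unfold Sl.P
    ring
  have g3 : In U θ (fun z => (ψ z * (σ.F W z + v z) + 1 / 2 * σ.Λ ψ z - σ.Γ W ψ z) * a z ^ 2) =
      In U θ (fun z => ψ z * (σ.F W z + v z) * a z ^ 2) +
        1 / 2 * In U θ (fun z => σ.Λ ψ z * a z ^ 2) - In U θ (fun z => a z ^ 2 * σ.Γ W ψ z) := by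
    rw [← In_cmul, ← In_add hU ok.ts t5 (t6.cmul hU (1 / 2)),
      ← In_sub hU ok.ts (t5.add hU (t6.cmul hU (1 / 2))) t7]
    exact In_congr hU fun z _ => by ring
  rw [g2, g3]
  linarith

/-- `s(X a, X a)`. -/
theorem sXX_eq (ok : σ.Ok U θ) (z : E) : (∑ i, ∑ j, σ.s i j z * XX σ W a i z * XX σ W a j z) =
    a z ^ 2 * σ.F W z - 2 * (a z * σ.Γ W a z) + σ.Γ a a z := by
  have h : a z * σ.Γ W a z = a z * σ.Γ a W z := by rw [G_comm ok W a]
  have e : 2 * (a z * σ.Γ W a z) = a z * σ.Γ W a z + a z * σ.Γ a W z := by rw [← h]; ring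
  rw [e]
  unfold Sl.F Sl.Γ XX
  simp only [Finset.mul_sum, ← Finset.sum_add_distrib, ← Finset.sum_sub_distrib]
  exact Finset.sum_congr rfl fun i _ => Finset.sum_congr rfl fun j _ => by ring

theorem sYY_eq (ok : σ.Ok U θ) (z : E) : sYY σ W a z =
    a z ^ 2 * σ.F W z + 2 * (a z * σ.Γ W a z) + σ.Γ a a z := by
  have h : a z * σ.Γ W a z = a z * σ.Γ a W z := by rw [G_comm ok W a]
  have e : 2 * (a z * σ.Γ W a z) = a z * σ.Γ W a z + a z * σ.Γ a W z := by rw [← h]; ring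
  rw [e]
  unfold sYY Sl.F Sl.Γ YY
  simp only [Finset.mul_sum, ← Finset.sum_add_distrib]
  exact Finset.sum_congr rfl fun i _ => Finset.sum_congr rfl fun j _ => by ring

/-- `∫ ψ a Γ(W, a)`. -/
theorem In_aWa (ok : σ.Ok U θ) (hW : Sm U W) (ha : Te U a) (hψ : Sm U ψ) :
    In U θ (fun z => ψ z * (2 * (a z * σ.Γ W a z))) =
      -In U θ (fun z => (ψ z * σ.Λ W z + σ.Γ W ψ z) * a z ^ 2) := by
  have hU := ok.op
  have ta := ha.sq hU
  have t1 : Te U fun z => ψ z * a z ^ 2 := ta.mul_left hU hψ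
  have e1 := In_L ok hW t1
  have t2 : Te U fun z => σ.Λ W z * (ψ z * a z ^ 2) := t1.mul_left hU (ok.sL hW)
  have t3 : Te U fun z => ψ z * (2 * (a z * σ.Γ W a z)) :=
    ((ha.mul_right hU (ok.sG hW ha.sm)).cmul hU 2).mul_left hU hψ
  have t4 : Te U fun z => a z ^ 2 * σ.Γ W ψ z := ta.mul_right hU (ok.sG hW hψ)
  have g1 : In U θ (σ.Γ W fun z => ψ z * a z ^ 2) =
      In U θ (fun z => ψ z * (2 * (a z * σ.Γ W a z))) + In U θ (fun z => a z ^ 2 * σ.Γ W ψ z) := by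
    rw [← In_add hU ok.ts t3 t4]
    refine In_congr hU fun z hz => ?_
    rw [G_mul ok W hψ ta.sm hz, G_sq ok W ha.sm hz]
    ring
  have g2 : In U θ (fun z => (ψ z * σ.Λ W z + σ.Γ W ψ z) * a z ^ 2) =
      In U θ (fun z => σ.Λ W z * (ψ z * a z ^ 2)) + In U θ (fun z => a z ^ 2 * σ.Γ W ψ z) := by
    rw [← In_add hU ok.ts t2 t4]
    exact In_congr hU fun z _ => by ring
  rw [g2, e1, g1]
  ring

/-- **Energy, `X` form.** -/
theorem en_X (ok : σ.Ok U θ) (hv : Sm U v) (hW : Sm U W) (ha : Te U a) (hψ : Sm U ψ) :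
    In U θ (fun z => ψ z * ∑ i, ∑ j, σ.s i j z * XX σ W a i z * XX σ W a j z) =
      -In U θ (fun z => ψ z * (a z * σ.P v W a z)) +
      In U θ (fun z => (ψ z * (2 * σ.F W z + v z + σ.Λ W z) + 1 / 2 * σ.Λ ψ z) * a z ^ 2) := by
  have hU := ok.op
  have ta := ha.sq hU
  have e1 := en_D ok hv hW ha hψ
  have e2 := In_aWa ok hW ha hψ
  have t1 : Te U fun z => ψ z * σ.Γ a a z := (ok.tG ha.sm ha).mul_left hU hψ
  have t2 : Te U fun z => ψ z * (2 * (a z * σ.Γ W a z)) :=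
    ((ha.mul_right hU (ok.sG hW ha.sm)).cmul hU 2).mul_left hU hψ
  have t3 : Te U fun z => ψ z * σ.F W z * a z ^ 2 := ta.mul_left hU (hψ.mul (ok.sF hW))
  have t4 : Te U fun z => (ψ z * (σ.F W z + v z) + 1 / 2 * σ.Λ ψ z - σ.Γ W ψ z) * a z ^ 2 :=
    ta.mul_left hU (((hψ.mul ((ok.sF hW).add hv)).add
      (contDiffOn_const.mul (ok.sL hψ))).sub (ok.sG hW hψ))
  have t5 : Te U fun z => (ψ z * σ.Λ W z + σ.Γ W ψ z) * a z ^ 2 :=
    ta.mul_left hU ((hψ.mul (ok.sL hW)).add (ok.sG hW hψ))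
  have g1 : In U θ (fun z => ψ z * ∑ i, ∑ j, σ.s i j z * XX σ W a i z * XX σ W a j z) =
      In U θ (fun z => ψ z * σ.Γ a a z) - In U θ (fun z => ψ z * (2 * (a z * σ.Γ W a z))) +
        In U θ (fun z => ψ z * σ.F W z * a z ^ 2) := by
    rw [← In_sub hU ok.ts t1 t2, ← In_add hU ok.ts (t1.sub hU t2) t3]
    refine In_congr hU fun z _ => ?_
    rw [sXX_eq ok]
    ring
  have g2 : In U θ (fun z => (ψ z * (2 * σ.F W z + v z + σ.Λ W z) + 1 / 2 * σ.Λ ψ z) * a z ^ 2) =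
      In U θ (fun z => (ψ z * (σ.F W z + v z) + 1 / 2 * σ.Λ ψ z - σ.Γ W ψ z) * a z ^ 2) +
      In U θ (fun z => (ψ z * σ.Λ W z + σ.Γ W ψ z) * a z ^ 2) +
        In U θ (fun z => ψ z * σ.F W z * a z ^ 2) := by
    rw [← In_add hU ok.ts t4 t5, ← In_add hU ok.ts (t4.add hU t5) t3]
    exact In_congr hU fun z _ => by ring
  rw [g1, g2, e1, e2]
  ring

/-- **Energy, `Y` form.** -/
theorem en_Y (ok : σ.Ok U θ) (hv : Sm U v) (hW : Sm U W) (ha : Te U a) (hψ : Sm U ψ) :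
    In U θ (fun z => ψ z * sYY σ W a z) =
      -In U θ (fun z => ψ z * (a z * σ.P v W a z)) +
      In U θ (fun z => (ψ z * (2 * σ.F W z + v z - σ.Λ W z) + 1 / 2 * σ.Λ ψ z -
        2 * σ.Γ W ψ z) * a z ^ 2) := by
  have hU := ok.op
  have ta := ha.sq hU
  have e1 := en_D ok hv hW ha hψ
  have e2 := In_aWa ok hW ha hψ
  have t1 : Te U fun z => ψ z * σ.Γ a a z := (ok.tG ha.sm ha).mul_left hU hψ
  have t2 : Te U fun z => ψ z * (2 * (a z * σ.Γ W a z)) :=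
    ((ha.mul_right hU (ok.sG hW ha.sm)).cmul hU 2).mul_left hU hψ
  have t3 : Te U fun z => ψ z * σ.F W z * a z ^ 2 := ta.mul_left hU (hψ.mul (ok.sF hW))
  have t4 : Te U fun z => (ψ z * (σ.F W z + v z) + 1 / 2 * σ.Λ ψ z - σ.Γ W ψ z) * a z ^ 2 :=
    ta.mul_left hU (((hψ.mul ((ok.sF hW).add hv)).add
      (contDiffOn_const.mul (ok.sL hψ))).sub (ok.sG hW hψ))
  have t5 : Te U fun z => (ψ z * σ.Λ W z + σ.Γ W ψ z) * a z ^ 2 :=
    ta.mul_left hU ((hψ.mul (ok.sL hW)).add (ok.sG hW hψ))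
  have g1 : In U θ (fun z => ψ z * sYY σ W a z) =
      In U θ (fun z => ψ z * σ.Γ a a z) + In U θ (fun z => ψ z * (2 * (a z * σ.Γ W a z))) +
        In U θ (fun z => ψ z * σ.F W z * a z ^ 2) := by
    rw [← In_add hU ok.ts t1 t2, ← In_add hU ok.ts (t1.add hU t2) t3]
    refine In_congr hU fun z _ => ?_
    rw [sYY_eq ok]
    ring
  have g2 : In U θ (fun z => (ψ z * (2 * σ.F W z + v z - σ.Λ W z) + 1 / 2 * σ.Λ ψ z -
        2 * σ.Γ W ψ z) * a z ^ 2) =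
      In U θ (fun z => (ψ z * (σ.F W z + v z) + 1 / 2 * σ.Λ ψ z - σ.Γ W ψ z) * a z ^ 2) -
      In U θ (fun z => (ψ z * σ.Λ W z + σ.Γ W ψ z) * a z ^ 2) +
        In U θ (fun z => ψ z * σ.F W z * a z ^ 2) := by
    rw [← In_sub hU ok.ts t4 t5, ← In_add hU ok.ts (t4.sub hU t5) t3]
    exact In_congr hU fun z _ => by ring
  rw [g1, g2, e1, e2]
  ring

/-- **The zero point energy.** -/
theorem zero_pt (ok : σ.Ok U θ) (hW : Sm U W) (ha : Te U a) (hq : ∀ i j, Sm U (q i j))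
    (qs : ∀ i j z, q i j z = q j i z)
    (pos : ∀ z ∈ U, ∀ u : ι → ℝ, 0 ≤ ∑ i, ∑ j, q i j z * u i * u j) :
    2 * In U θ (fun z => zp σ q W z * a z ^ 2) ≤ In U θ (qX σ q W a) := by
  have hU := ok.op
  have e : In U θ (qX σ q W a) = In U θ (qY σ q W a) +
      2 * In U θ (fun z => zp σ q W z * a z ^ 2) := XY ok hW ha hq qs
  have h : 0 ≤ In U θ (qY σ q W a) := In_nonneg hU ok.tp fun z hz => pos z hz _
  linarith

end integral

end Vale.Agent.P088.R2.H660.W
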